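import Vale.Agent.H34.BoundedDuality

/-!
# P126: the duality inequalities for coordinatewise bounded convex bodies

Let `K, L` be origin-symmetric convex bodies in `ℝⁿ` with `|x i| ≤ α i` for `x ∈ K` and
`|y i| ≤ β i` for `y ∈ L°`, and let `R = ∑ i, α i * β i`.  Then for every `ε > 0`
`log N(K, ε L) ≤ 33 (R/ε)² (1 + log N(L°, (ε/8) K°))` and
`log N(L°, ε K°) ≤ 33 (R/ε)² (1 + log N(K, (ε/8) L))`.
-/

namespace Vale.Agent.Results.P126.A_BoundedDuality

open Vale.Agent.H34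
open scoped Pointwise

theorem result (n : ℕ) (K L : Set (EuclideanSpace ℝ (Fin n)))
    (hKc : IsCompact K) (hKv : Convex ℝ K) (hKi : (interior K).Nonempty)
    (hKs : ∀ x ∈ K, -x ∈ K)
    (hLc : IsCompact L) (hLv : Convex ℝ L) (hLi : (interior L).Nonempty)
    (hLs : ∀ x ∈ L, -x ∈ L)
    (α β : Fin n → ℝ) (hK : ∀ x ∈ K, ∀ i, |x i| ≤ α i)
    (hL : ∀ y ∈ polarBody L, ∀ i, |y i| ≤ β i) (ε : ℝ) (hε : 0 < ε) :
    Real.log (coveringNumber K (ε • L) : ℝ) ≤
        33 * ((∑ i, α i * β i) / ε) ^ 2 *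
          (1 + Real.log (coveringNumber (polarBody L) ((ε / 8) • polarBody K) : ℝ)) ∧
    Real.log (coveringNumber (polarBody L) (ε • polarBody K) : ℝ) ≤
        33 * ((∑ i, α i * β i) / ε) ^ 2 *
          (1 + Real.log (coveringNumber K ((ε / 8) • L) : ℝ)) :=
  bounded_duality_bodies hKs hLc hLv hLi hLs α β hK hL ε hε

end Vale.Agent.Results.P126.A_BoundedDuality
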