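import Vale.Agent.H34.Tight

/-!
# P126: duality of metric entropy for coordinatewise bounded sets, with near-optimality

First part: for arbitrary sets `A, B ⊆ ℝⁿ` with `|x i| ≤ α i` on `A`, `|y i| ≤ β i` on `B` and
`R = ∑ i, α i * β i`, for every `ε > 0`
`log N(A, {z : |⟨y, z⟩| ≤ ε for all y ∈ B}) ≤
  33 (R/ε)² (1 + log N(B, {z : |⟨x, z⟩| ≤ ε/8 for all x ∈ A}))`.

Second part: for every `ε ∈ (0, 1/16]` there is such a pair with `R = 1`,
`log N(A, {z : |⟨y, z⟩| ≤ ε for all y ∈ B}) ≥ 1/(640 ε²)` and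
`log N(B, {z : |⟨x, z⟩| ≤ ε/8 for all x ∈ A}) ≤ 2 log(1/ε)`, so the factor `(R/ε)²` of the first
part is optimal up to a logarithm.
-/

namespace Vale.Agent.Results.P126.A_BoundedSetsSharp

open Vale.Agent.H34
open scoped Pointwise

theorem result :
    (∀ (n : ℕ) (A B : Set (EuclideanSpace ℝ (Fin n))) (α β : Fin n → ℝ),
      (∀ x ∈ A, ∀ i, |x i| ≤ α i) → (∀ y ∈ B, ∀ i, |y i| ≤ β i) →
      ∀ ε : ℝ, 0 < ε →
        Real.log (coveringNumber A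
            {z : EuclideanSpace ℝ (Fin n) | ∀ y ∈ B, |inner ℝ y z| ≤ ε} : ℝ) ≤
          33 * ((∑ i, α i * β i) / ε) ^ 2 *
            (1 + Real.log (coveringNumber B
              {z : EuclideanSpace ℝ (Fin n) | ∀ x ∈ A, |inner ℝ x z| ≤ ε / 8} : ℝ))) ∧
    (∀ ε : ℝ, 0 < ε → ε ≤ 1 / 16 →
      ∃ (n : ℕ) (A B : Set (EuclideanSpace ℝ (Fin n))) (α β : Fin n → ℝ),
        (∀ x ∈ A, ∀ i, |x i| ≤ α i) ∧ (∀ y ∈ B, ∀ i, |y i| ≤ β i) ∧
        ∑ i, α i * β i = 1 ∧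
        1 / (640 * ε ^ 2) ≤
          Real.log (coveringNumber A
            {z : EuclideanSpace ℝ (Fin n) | ∀ y ∈ B, |inner ℝ y z| ≤ ε} : ℝ) ∧
        Real.log (coveringNumber B
            {z : EuclideanSpace ℝ (Fin n) | ∀ x ∈ A, |inner ℝ x z| ≤ ε / 8} : ℝ) ≤
          2 * Real.log (1 / ε)) :=
  ⟨fun _ A B α β hA hB ε hε => bounded_duality_sets A B α β hA hB ε hε,
   fun ε hε hε' => bounded_sets_tight ε hε hε'⟩

end Vale.Agent.Results.P126.A_BoundedSetsSharp
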