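import Vale.Agent.H34.Quadratic

/-!
# P126: the duality conjecture for metric entropy up to a quadratic loss

For all origin-symmetric convex bodies `K, L` in `ℝⁿ`, with `N` the covering number and `°` the
polar,
`log N(L°, 32 K°) ≤ 2600 (1 + log N(K, L))^2` and
`log N(K, L) ≤ 2600 (1 + log N(L°, K°/32))^2`.
The scale constant `32` is absolute and the bounds do not depend on the dimension.
-/

namespace Vale.Agent.Results.P126.A_DualityQuadratic

open Vale.Agent.H34
open scoped Pointwise

theorem result (n : ℕ) (K L : Set (EuclideanSpace ℝ (Fin n)))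
    (hKc : IsCompact K) (hKv : Convex ℝ K) (hKi : (interior K).Nonempty)
    (hKs : ∀ x ∈ K, -x ∈ K)
    (hLc : IsCompact L) (hLv : Convex ℝ L) (hLi : (interior L).Nonempty)
    (hLs : ∀ x ∈ L, -x ∈ L) :
    Real.log (coveringNumber (polarBody L) ((32 : ℝ) • polarBody K) : ℝ) ≤
        2600 * (1 + Real.log (coveringNumber K L : ℝ)) ^ 2 ∧
    Real.log (coveringNumber K L : ℝ) ≤
        2600 * (1 + Real.log (coveringNumber (polarBody L)
          ((32 : ℝ)⁻¹ • polarBody K) : ℝ)) ^ 2 :=
  ⟨quad_duality_left hKc hKv hKi hKs hLv hLi hLs,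
    quad_duality_right hKc hKv hKi hKs hLc hLv hLi hLs⟩

end Vale.Agent.Results.P126.A_DualityQuadratic
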