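import Vale.Agent.H34.BoundedDuality

/-!
# P126: duality of metric entropy for coordinatewise bounded sets

Let `A, B ⊆ ℝⁿ` be arbitrary sets with `|x i| ≤ α i` for `x ∈ A` and `|y i| ≤ β i` for `y ∈ B`,
and let `R = ∑ i, α i * β i`.  Then for every `ε > 0`
`log N(A, {z : |⟨y, z⟩| ≤ ε for all y ∈ B}) ≤
  33 (R/ε)² (1 + log N(B, {z : |⟨x, z⟩| ≤ ε/8 for all x ∈ A}))`.
-/

namespace Vale.Agent.Results.P126.B_BoundedSets

open Vale.Agent.H34
open scoped Pointwise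

theorem result (n : ℕ) (A B : Set (EuclideanSpace ℝ (Fin n))) (α β : Fin n → ℝ)
    (hA : ∀ x ∈ A, ∀ i, |x i| ≤ α i) (hB : ∀ y ∈ B, ∀ i, |y i| ≤ β i)
    (ε : ℝ) (hε : 0 < ε) :
    Real.log (coveringNumber A
        {z : EuclideanSpace ℝ (Fin n) | ∀ y ∈ B, |inner ℝ y z| ≤ ε} : ℝ) ≤
      33 * ((∑ i, α i * β i) / ε) ^ 2 *
        (1 + Real.log (coveringNumber B
          {z : EuclideanSpace ℝ (Fin n) | ∀ x ∈ A, |inner ℝ x z| ≤ ε / 8} : ℝ)) :=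
  bounded_duality_sets A B α β hA hB ε hε

end Vale.Agent.Results.P126.B_BoundedSets
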